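import Vale.Agent.P273.H598.Node1

/-!
# P273, row ASY1, item N1 (helper401): the regular part of the neck primitive, uniform bounds
-/

noncomputable section

namespace Vale.Agent.P273.H401

open Complex Set Filter
open scoped Topology

/-- Uniform bounds of `P0` and of its derivative near `(0, 0, q₀)`. -/
def NkP : Prop := ∀ (k : Fin 5) (V : Set H857.C6) (ρ : ℝ), H598.NB k V ρ → ∀ q₀ ∈ V,
  ∃ U ∈ 𝓝 q₀, ∃ r > 0, ∃ A : ℝ, 1 ≤ A ∧ U ⊆ V ∧ r ≤ ρ / 2 ∧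
    ∀ q ∈ U, ∀ X ε : ℂ, ‖X‖ ≤ r → ‖ε‖ ≤ r → ∀ m ≤ 1,
      ‖H598.P0 (fun z => H598.HH k m (q, z)) (5 * ρ) X ε‖ ≤ A ∧
      (‖H598.P0 (fun z => H598.HH k m (q, z)) (5 * ρ) X ε‖ ≤ A * ‖X‖) ∧
      ∃ P' : ℂ × ℂ × H857.C6 →L[ℂ] ℂ,
        HasFDerivAt (fun p : ℂ × ℂ × H857.C6 =>
          H598.P0 (fun z => H598.HH k m (p.2.2, z)) (5 * ρ) p.1 p.2.1) P' (X, ε, q) ∧ ‖P'‖ ≤ A

end Vale.Agent.P273.H401

end
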